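import Vale.Agent.P126.Main

open scoped Pointwise

open Vale.Agent.P126 in
/-- Dimension-free entropy duality with absolute scale `a = 32` and a factor polynomial in the
entropy: for all origin-symmetric convex bodies `K`, `L` in `ℝⁿ`, for every `n`,
`log N(L°, 32 K°) ≤ 100 k (1 + k)²` with `k = log N(K, L)`, and
`log N(K, L) ≤ 100 k' (1 + k')²` with `k' = log N(L°, (1/32) K°)`. -/
theorem Vale.Agent.Results.P126.DualityPolyLoss.result :
    ∀ (n : ℕ) (K L : Set (EuclideanSpace ℝ (Fin n))), IsSymBody K → IsSymBody L →
      Real.log (coveringNumber (polarBody L) ((32:ℝ) • polarBody K)) ≤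
          100 * Real.log (coveringNumber K L) * (1 + Real.log (coveringNumber K L)) ^ 2 ∧
      Real.log (coveringNumber K L) ≤
          100 * Real.log (coveringNumber (polarBody L) ((32:ℝ)⁻¹ • polarBody K)) *
            (1 + Real.log (coveringNumber (polarBody L) ((32:ℝ)⁻¹ • polarBody K))) ^ 2 :=
  fun _ _ _ hK hL => ⟨log_coveringNumber_polar_le hK hL, log_coveringNumber_le hK hL⟩
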