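import Vale.Agent.P126.Transfer

open scoped Pointwise

open Vale.Agent.P126 in
/-- The duality conjecture with absolute constants `a = 2000 C`, `b = 600` for a pair `(K, L)`
where `L` is the unit cube of a basis `b` and `K` is a symmetric convex body that is
`C`-unconditional in the same basis. -/
theorem Vale.Agent.Results.P126.UnconditionalCube.result :
    ∀ (n : ℕ) (b : Module.Basis (Fin n) ℝ (EuclideanSpace ℝ (Fin n)))
      (K : Set (EuclideanSpace ℝ (Fin n))) (C : ℝ), 1 ≤ C → IsSymBody K →
      (∀ x ∈ K, ∀ u, (∀ i, |b.repr u i| = |b.repr x i|) → u ∈ C • K) →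
      (1/600 : ℝ) * Real.log (coveringNumber (polarBody {x | ∀ i, |b.repr x i| ≤ 1})
          ((2000 * C) • polarBody K)) ≤
        Real.log (coveringNumber K {x | ∀ i, |b.repr x i| ≤ 1}) ∧
      Real.log (coveringNumber K {x | ∀ i, |b.repr x i| ≤ 1}) ≤
        600 * Real.log (coveringNumber (polarBody {x | ∀ i, |b.repr x i| ≤ 1})
          ((2000 * C)⁻¹ • polarBody K)) :=
  fun _ b _ _ hC hK hu => uncond_basis b hK hC hu
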