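import Vale.Agent.P126.PairsBasis

open scoped Pointwise

open Vale.Agent.P126 in
/-- The duality conjecture with absolute constants for every pair of symmetric convex bodies that
are unconditional in a common basis: `a = 510 C ^ 2`, `b = 7000000`, where both bodies are
`C`-unconditional in the basis `b`. -/
theorem Vale.Agent.Results.P126.UnconditionalPairs.result :
    ∀ (n : ℕ) (b : Module.Basis (Fin n) ℝ (EuclideanSpace ℝ (Fin n)))
      (K L : Set (EuclideanSpace ℝ (Fin n))) (C : ℝ), 1 ≤ C → IsSymBody K → IsSymBody L →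
      (∀ x ∈ K, ∀ u, (∀ i, |b.repr u i| = |b.repr x i|) → u ∈ C • K) →
      (∀ x ∈ L, ∀ u, (∀ i, |b.repr u i| = |b.repr x i|) → u ∈ C • L) →
      (1/7000000 : ℝ) * Real.log (coveringNumber (polarBody L) ((510 * C ^ 2) • polarBody K)) ≤
        Real.log (coveringNumber K L) ∧
      Real.log (coveringNumber K L) ≤
        7000000 * Real.log (coveringNumber (polarBody L) ((510 * C ^ 2)⁻¹ • polarBody K)) :=
  fun _ b _ _ _ hC hK hL huK huL => pairs_basis b hK hL hC huK huL
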